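import Vale.Agent.P207.H106.Aff.Zd
import Vale.Agent.P207.H387.Q4.Es

/-! # P207, Q'', USE 1: affine sections with smooth pairing have their coefficients in the
S-bundle (`b < 2 a` only) -/

set_option linter.all false

open Metric Set Filter Topology Module
open scoped ContDiff

namespace Vale.Agent.P207.H106.Aff

open Vale.Agent.P207.H686

variable {k0 : ℕ} {E W X : Type*} [NormedAddCommGroup E] [NormedSpace ℝ E] [NormedAddCommGroup W]
  [NormedSpace ℝ W]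

/-- affine sections with coefficients in the submodule `S` -/
def AffS (E : Type*) [NormedAddCommGroup E] [NormedSpace ℝ E] (S : Submodule ℝ W) :
    Submodule ℝ (W × (E →L[ℝ] W)) where
  carrier := {p | p.1 ∈ S ∧ ∀ u, p.2 u ∈ S}
  add_mem' := fun ha hb => ⟨S.add_mem ha.1 hb.1, fun u => S.add_mem (ha.2 u) (hb.2 u)⟩
  zero_mem' := ⟨S.zero_mem, fun u => S.zero_mem⟩
  smul_mem' := fun c a ha => ⟨S.smul_mem c ha.1, fun u => S.smul_mem c (ha.2 u)⟩

theorem mem_AffS {S : Submodule ℝ W} {p : W × (E →L[ℝ] W)} :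
    p ∈ AffS E S ↔ p.1 ∈ S ∧ ∀ u, p.2 u ∈ S := Iff.rfl

noncomputable def affEquiv (S : Submodule ℝ W) : AffS E S ≃ₗ[ℝ] (S × (E →L[ℝ] S)) where
  toFun p := (⟨p.1.1, p.2.1⟩, p.1.2.codRestrict S p.2.2)
  map_add' p q := by
    refine Prod.ext rfl (ContinuousLinearMap.ext fun x => Subtype.ext rfl)
  map_smul' c p := by
    refine Prod.ext rfl (ContinuousLinearMap.ext fun x => Subtype.ext rfl)
  invFun q := ⟨(q.1, S.subtypeL.comp q.2), q.1.2, fun u => (q.2 u).2⟩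
  left_inv p := by
    refine Subtype.ext (Prod.ext rfl (ContinuousLinearMap.ext fun x => rfl))
  right_inv q := by
    refine Prod.ext rfl (ContinuousLinearMap.ext fun x => Subtype.ext rfl)

theorem finrank_AffS [FiniteDimensional ℝ E] [FiniteDimensional ℝ W] (S : Submodule ℝ W) :
    finrank ℝ (AffS E S) = finrank ℝ S + finrank ℝ E * finrank ℝ S := by
  rw [(affEquiv (E := E) S).finrank_eq, Module.finrank_prod]
  congr 1
  rw [← (LinearMap.toContinuousLinearMap (𝕜 := ℝ) (E := E) (F' := S)).finrank_eq,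
    Module.finrank_linearMap]

variable [FiniteDimensional ℝ E]

theorem lin_smooth (D : ZDk k0 E W X) {v : X} {T : E →L[ℝ] W} (hT : ∀ u, T u ∈ D.Sm v) :
    ContDiffOn ℝ ∞ (fun x => D.N v x (T x)) (ball 0 1) := by
  set b := Module.finBasis ℝ E
  have h : ∀ x : E, D.N v x (T x) = ∑ i, b.repr x i * D.N v x (T (b i)) := by
    intro x
    have h1 : T x = ∑ i, b.repr x i • T (b i) := by
      conv_lhs => rw [← b.sum_repr x]
      rw [map_sum]
      exact Finset.sum_congr rfl fun i _ => by rw [map_smul]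
    rw [h1, map_sum]
    exact Finset.sum_congr rfl fun i _ => by rw [map_smul, smul_eq_mul]
  refine ContDiffOn.congr (f := fun x => ∑ i, b.repr x i * D.N v x (T (b i))) ?_ fun x _ => h x
  refine ContDiffOn.sum fun i _ => ContDiffOn.mul ?_ (hT (b i))
  have h2 : ContDiff ℝ ∞ fun x : E => b.repr x i :=
    (LinearMap.toContinuousLinearMap (b.coord i)).contDiff
  exact h2.contDiffOn

theorem AffS_le (D : ZDk k0 E W X) {k1 : ℕ} (h1 : D.lam ^ k1 * (D.Lam * D.mu) < 1) (v : X) :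
    AffS E (D.Sm v) ≤ (D.aff k1 h1).Sm v := by
  intro p hp
  have h2 : ContDiffOn ℝ ∞ (fun x => D.N v x p.1) (ball 0 1) := hp.1
  have h3 := lin_smooth D hp.2
  refine (h2.add h3).congr fun x _ => ?_
  show D.N v x (p.1 + p.2 x) = D.N v x p.1 + D.N v x (p.2 x)
  rw [map_add]

theorem mem_of_lin (D : ZDk k0 E W X) {k1 : ℕ} (h1 : D.lam ^ k1 * (D.Lam * D.mu) < 1) {v : X}
    {p : W × (E →L[ℝ] W)} (hp : p ∈ (D.aff k1 h1).Sm v) (hT : ∀ u, p.2 u ∈ D.Sm v) :
    p ∈ AffS E (D.Sm v) := by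
  refine ⟨?_, hT⟩
  have h2 : ContDiffOn ℝ ∞ (fun x => D.N v x (p.1 + p.2 x)) (ball 0 1) := hp
  refine (h2.sub (lin_smooth D hT)).congr fun x _ => ?_
  show D.N v x p.1 = D.N v x (p.1 + p.2 x) - D.N v x (p.2 x)
  rw [map_add]
  ring

/-- a constant section in the affine bundle is in the S-bundle -/
theorem const_mem (D : ZDk k0 E W X) {k1 : ℕ} (h1 : D.lam ^ k1 * (D.Lam * D.mu) < 1) {v : X}
    {s : W} (hs : ((s, 0) : W × (E →L[ℝ] W)) ∈ (D.aff k1 h1).Sm v) : s ∈ D.Sm v := by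
  have h2 : ContDiffOn ℝ ∞ (fun x => D.N v x (s + (0 : E →L[ℝ] W) x)) (ball 0 1) := hs
  refine ContDiffOn.congr h2 fun x _ => ?_
  show D.N v x s = D.N v x (s + (0 : E →L[ℝ] W) x)
  rw [zero_apply, add_zero]

/-- the derived action on affine sections -/
noncomputable def rhoA (rho : (E →L[ℝ] E) →L[ℝ] (W →L[ℝ] W)) (Y : E →L[ℝ] E)
    (p : W × (E →L[ℝ] W)) : W × (E →L[ℝ] W) :=
  (rho Y p.1, (rho Y).comp p.2 - p.2.comp Y)

/-- **the input from the type lemma**: the velocity of the bundle of affine sections along the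
leaf is tangent to the orbit of `gl(E)`, uniformly on the set `K` of frames -/
def TyA (D : ZDk k0 E W X) (k1 : ℕ) (h1 : D.lam ^ k1 * (D.Lam * D.mu) < 1)
    (rho : (E →L[ℝ] E) →L[ℝ] (W →L[ℝ] W)) (K : Set X) (C : ℝ) : Prop :=
  ∀ v ∈ K, ∀ u : E, ∃ Y : E →L[ℝ] E, ‖Y‖ ≤ C * ‖u‖ ∧ ∀ p ∈ (D.aff k1 h1).Sm v,
    ((p.2 u, 0) : W × (E →L[ℝ] W)) - rhoA rho Y p ∈ (D.aff k1 h1).Sm v

theorem ch_A' (D : ZDk k0 E W X) {v : X} {n : ℕ} {A : E ≃L[ℝ] E} {L : W ≃L[ℝ] W} {v' : X}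
    (h : Ch D.St v n A L v') : ∀ x, ‖A x‖ ≤ D.mu ^ n * ‖x‖ := by
  have hmu : 0 < D.mu := zero_lt_one.trans_le D.mu1
  induction h with
  | zero => intro x; simp
  | @succ n A L v' A' L' v'' h h' ih =>
    intro x
    show ‖A' (A x)‖ ≤ _
    calc ‖A' (A x)‖ ≤ D.mu * ‖A x‖ := D.St_A' h' _
      _ ≤ D.mu * (D.mu ^ n * ‖x‖) := mul_le_mul_of_nonneg_left (ih x) hmu.le
      _ = D.mu ^ (n + 1) * ‖x‖ := by ring

/-- conjugation -/
noncomputable def cj (A : E ≃L[ℝ] E) (Y : E →L[ℝ] E) : E →L[ℝ] E :=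
  (A : E →L[ℝ] E).comp (Y.comp (A.symm : E →L[ℝ] E))

theorem cj_trans (A A' : E ≃L[ℝ] E) (Y : E →L[ℝ] E) : cj (A.trans A') Y = cj A' (cj A Y) := rfl

theorem ch_rho (D : ZDk k0 E W X) {rho : (E →L[ℝ] E) →L[ℝ] (W →L[ℝ] W)}
    (hrho : ∀ {v A L v'}, D.St v A L v' → ∀ Y s, L (rho Y s) = rho (cj A Y) (L s))
    {v : X} {n : ℕ} {A : E ≃L[ℝ] E} {L : W ≃L[ℝ] W} {v' : X}
    (h : Ch D.St v n A L v') : ∀ Y s, L (rho Y s) = rho (cj A Y) (L s) := by
  induction h with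
  | zero =>
    intro Y s
    have : cj (ContinuousLinearEquiv.refl ℝ E) Y = Y := by
      ext x; rfl
    rw [this]; rfl
  | @succ n A L v' A' L' v'' h h' ih =>
    intro Y s
    show L' (L (rho Y s)) = rho (cj (A.trans A') Y) (L' (L s))
    rw [ih, hrho h', cj_trans]

/-- **USE 1 at one frame** with a recurrent backward orbit -/
theorem lin_mem (D : ZDk k0 E W X) [FiniteDimensional ℝ W] {k1 : ℕ}
    (h1 : D.lam ^ k1 * (D.Lam * D.mu) < 1)
    {rho : (E →L[ℝ] E) →L[ℝ] (W →L[ℝ] W)}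
    (hrho : ∀ {v A L v'}, D.St v A L v' → ∀ Y s, L (rho Y s) = rho (cj A Y) (L s))
    (hmu : D.lam ^ 2 * D.mu < 1) {K : Set X} {C : ℝ} (hC : 0 ≤ C) (hT : TyA D k1 h1 rho K C)
    {v0 : X} (hrec : ∀ n0 : ℕ, ∃ n ≥ n0, ∃ v ∈ K, ∃ A L, Ch D.St v n A L v0)
    {p : W × (E →L[ℝ] W)} (hp : p ∈ (D.aff k1 h1).Sm v0) (u : E) : p.2 u ∈ D.Sm v0 := by
  classical
  refine const_mem D h1 ?_
  have hmu0 : 0 < D.mu := zero_lt_one.trans_le D.mu1
  -- one return
  have key : ∀ n v A L, v ∈ K → Ch D.St v n A L v0 → ∃ Y : E →L[ℝ] E,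
      ‖Y‖ ≤ C * ‖u‖ * (D.lam ^ 2 * D.mu) ^ n ∧
      ((p.2 u, 0) : W × (E →L[ℝ] W)) - rhoA rho Y p ∈ (D.aff k1 h1).Sm v0 := by
    intro n v A L hv hch
    have hch' : Ch (D.aff k1 h1).St v n A (affE L A 0) v0 := ch_aff hch
    obtain ⟨Y, hY, hYm⟩ := hT v hv (A.symm u)
    set p' := (affE L A 0).symm p with hp'
    have hpe : affE L A 0 p' = p := (affE L A 0).apply_symm_apply p
    have hp'm : p' ∈ (D.aff k1 h1).Sm v := by
      rw [(D.aff k1 h1).sm_ch hch', hpe]; exact hp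
    have h2 := ((D.aff k1 h1).sm_ch hch' _).1 (hYm p' hp'm)
    have e1 : affE L A 0 ((p'.2 (A.symm u), 0) : W × (E →L[ℝ] W)) = (p.2 u, 0) := by
      refine Prod.ext ?_ (ContinuousLinearMap.ext fun x => ?_)
      · rw [affE_fst]
        show L (p'.2 (A.symm u) + (0 : E →L[ℝ] W) 0) = p.2 u
        rw [zero_apply, add_zero, ← hpe, affE_snd]
      · rw [affE_snd]
        show L ((0 : E →L[ℝ] W) (A.symm x)) = (0 : E →L[ℝ] W) x
        rw [zero_apply, zero_apply, map_zero]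
    have hr := ch_rho D hrho hch
    have e2 : affE L A 0 (rhoA rho Y p') = rhoA rho (cj A Y) p := by
      refine Prod.ext ?_ (ContinuousLinearMap.ext fun x => ?_)
      · rw [affE_fst]
        show L (rho Y p'.1 + ((rho Y).comp p'.2 - p'.2.comp Y) 0) = rho (cj A Y) p.1
        rw [map_zero, add_zero, hr, ← hpe, affE_fst, map_zero, add_zero]
      · rw [affE_snd]
        show L (rho Y (p'.2 (A.symm x)) - p'.2 (Y (A.symm x)))
          = rho (cj A Y) (p.2 x) - p.2 (cj A Y x)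
        have e3 : ∀ y, p.2 y = L (p'.2 (A.symm y)) := fun y => by rw [← hpe, affE_snd]
        rw [map_sub, hr, e3 x, e3 (cj A Y x)]
        congr 3
        show Y (A.symm x) = A.symm (A (Y (A.symm x)))
        rw [A.symm_apply_apply]
    refine ⟨cj A Y, ?_, ?_⟩
    · refine ContinuousLinearMap.opNorm_le_bound _ (by positivity) fun x => ?_
      have b1 := D.ch_A hch u
      have b2 := D.ch_A hch x
      have b3 := ch_A' D hch (Y (A.symm x))
      have hlam : 0 ≤ D.lam ^ n := pow_nonneg D.lam0.le n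
      calc ‖cj A Y x‖ ≤ D.mu ^ n * ‖Y (A.symm x)‖ := b3
        _ ≤ D.mu ^ n * ((C * (D.lam ^ n * ‖u‖)) * (D.lam ^ n * ‖x‖)) := by
            refine mul_le_mul_of_nonneg_left ?_ (pow_nonneg hmu0.le n)
            refine (Y.le_opNorm _).trans (mul_le_mul ?_ b2 (norm_nonneg _) (by positivity))
            exact hY.trans (mul_le_mul_of_nonneg_left b1 hC)
        _ = C * ‖u‖ * (D.lam ^ 2 * D.mu) ^ n * ‖x‖ := by rw [mul_pow, ← pow_mul]; ring
    · rw [map_sub, e1, e2] at h2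
      exact h2
  -- the limit
  choose n hn v hv A L hch using hrec
  choose Y hY hYm using fun j : ℕ => key (n j) (v j) (A j) (L j) (hv j) (hch j)
  have hcl : IsClosed ((D.aff k1 h1).Sm v0 : Set (W × (E →L[ℝ] W))) :=
    ((D.aff k1 h1).Sm v0).closed_of_finiteDimensional
  have hnt : Tendsto n atTop atTop := tendsto_atTop_mono hn tendsto_id
  have hYn : Tendsto (fun j => ‖Y j‖) atTop (𝓝 0) := by
    have h2 := ((tendsto_pow_atTop_nhds_zero_of_lt_one
      (mul_nonneg (sq_nonneg _) hmu0.le) hmu).comp hnt).const_mul (C * ‖u‖)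
    rw [mul_zero] at h2
    exact squeeze_zero (fun j => norm_nonneg _) hY h2
  have hY0 : Tendsto Y atTop (𝓝 0) := tendsto_zero_iff_norm_tendsto_zero.2 hYn
  have hrc : Continuous fun Y : E →L[ℝ] E => rhoA rho Y p := by
    unfold rhoA
    have c1 : Continuous fun Y : E →L[ℝ] E => rho Y p.1 :=
      ((ContinuousLinearMap.apply ℝ W p.1).continuous.comp rho.continuous)
    have c2 : Continuous fun Y : E →L[ℝ] E => (rho Y).comp p.2 :=
      rho.continuous.clm_comp continuous_const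
    have c3 : Continuous fun Y : E →L[ℝ] E => p.2.comp Y :=
      continuous_const.clm_comp continuous_id
    exact c1.prodMk (c2.sub c3)
  have hr0 : rhoA rho 0 p = 0 := by
    refine Prod.ext ?_ (ContinuousLinearMap.ext fun x => ?_)
    · show rho 0 p.1 = 0
      rw [map_zero]; rfl
    · show rho 0 (p.2 x) - p.2 ((0 : E →L[ℝ] E) x) = 0
      rw [map_zero, zero_apply, zero_apply, map_zero, sub_zero]
  have hlim : Tendsto (fun j => ((p.2 u, 0) : W × (E →L[ℝ] W)) - rhoA rho (Y j) p) atTop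
      (𝓝 ((p.2 u, 0) - 0)) := by
    refine tendsto_const_nhds.sub ?_
    have := (hrc.tendsto 0).comp hY0
    rwa [hr0] at this
  rw [sub_zero] at hlim
  exact hcl.mem_of_tendsto hlim (Eventually.of_forall hYm)

/-- **USE 1** -/
theorem aff_sm (D : ZDk k0 E W X) [FiniteDimensional ℝ W] {k1 : ℕ}
    (h1 : D.lam ^ k1 * (D.Lam * D.mu) < 1)
    {rho : (E →L[ℝ] E) →L[ℝ] (W →L[ℝ] W)}
    (hrho : ∀ {v A L v'}, D.St v A L v' → ∀ Y s, L (rho Y s) = rho (cj A Y) (L s))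
    (hmu : D.lam ^ 2 * D.mu < 1) {K : Set X} {C : ℝ} (hC : 0 ≤ C) (hT : TyA D k1 h1 rho K C)
    {v0 : X} (hrec : ∀ n0 : ℕ, ∃ n ≥ n0, ∃ v ∈ K, ∃ A L, Ch D.St v n A L v0) (v : X) :
    (D.aff k1 h1).Sm v = AffS E (D.Sm v) := by
  have h0 : (D.aff k1 h1).Sm v0 = AffS E (D.Sm v0) :=
    le_antisymm (fun p hp => mem_of_lin D h1 hp (lin_mem D h1 hrho hmu hC hT hrec hp))
      (AffS_le D h1 v0)
  symm
  refine Submodule.eq_of_le_of_finrank_eq (AffS_le D h1 v) ?_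
  rw [finrank_AffS, D.sm_rank v v0, ← finrank_AffS, ← h0]
  exact (D.aff k1 h1).sm_rank v0 v

/-- 387's `AfC` from the equality of USE 1 -/
theorem afC {k0 : ℕ} {E W X : Type} [NormedAddCommGroup E] [NormedSpace ℝ E]
    [NormedAddCommGroup W] [NormedSpace ℝ W] [FiniteDimensional ℝ E]
    (D : ZDk k0 E W X) [FiniteDimensional ℝ W] {k1 : ℕ}
    (h1 : D.lam ^ k1 * (D.Lam * D.mu) < 1)
    (h : ∀ v, (D.aff k1 h1).Sm v = AffS E (D.Sm v)) : ∀ i ≥ k1, H387.Q4.AfC D i := by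
  intro i hi w s T f K' hf hb hlim
  have h2 : ((s, T) : W × (E →L[ℝ] W)) ∈ (D.aff k1 h1).Sm w :=
    (D.aff k1 h1).sm_fin hi isOpen_ball subset_rfl ⟨0, mem_ball_self one_pos⟩ f hf hb hlim
  rw [h w] at h2
  exact h2

/-- some order is enough for the gap of the affine data -/
theorem exists_k1 (D : ZDk k0 E W X) : ∃ k1, D.lam ^ k1 * (D.Lam * D.mu) < 1 := by
  have h := (tendsto_pow_atTop_nhds_zero_of_lt_one D.lam0.le D.lam1).mul_const (D.Lam * D.mu)
  rw [zero_mul] at h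
  exact (h.eventually (gt_mem_nhds one_pos)).exists

end Vale.Agent.P207.H106.Aff
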