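import Vale.Agent.P207.H106.Aff.Use1

/-! # P207, Q'', USE 1 by forward chains: the type lemma at one single frame is enough -/

set_option linter.all false

open Metric Set Filter Topology Module
open scoped ContDiff

namespace Vale.Agent.P207.H106.Aff

open Vale.Agent.P207.H686

variable {k0 : ℕ} {E W X : Type*} [NormedAddCommGroup E] [NormedSpace ℝ E] [NormedAddCommGroup W]
  [NormedSpace ℝ W] [FiniteDimensional ℝ E]

theorem rhoA_norm (rho : (E →L[ℝ] E) →L[ℝ] (W →L[ℝ] W)) (Y : E →L[ℝ] E) (p : W × (E →L[ℝ] W)) :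
    ‖rhoA rho Y p‖ ≤ (‖rho‖ + 1) * ‖Y‖ * ‖p‖ := by
  have h1 : ‖p.1‖ ≤ ‖p‖ := norm_fst_le p
  have h2 : ‖p.2‖ ≤ ‖p‖ := norm_snd_le p
  have h3 : ‖rho Y‖ ≤ ‖rho‖ * ‖Y‖ := rho.le_opNorm Y
  have h0 : 0 ≤ ‖Y‖ * ‖p‖ := by positivity
  rw [Prod.norm_def]
  refine max_le ?_ ?_
  · calc ‖rho Y p.1‖ ≤ ‖rho Y‖ * ‖p.1‖ := (rho Y).le_opNorm _
      _ ≤ (‖rho‖ * ‖Y‖) * ‖p‖ := mul_le_mul h3 h1 (norm_nonneg _) (by positivity)
      _ ≤ _ := by nlinarith
  · calc ‖(rho Y).comp p.2 - p.2.comp Y‖ ≤ ‖(rho Y).comp p.2‖ + ‖p.2.comp Y‖ := norm_sub_le _ _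
      _ ≤ ‖rho Y‖ * ‖p.2‖ + ‖p.2‖ * ‖Y‖ :=
          add_le_add (ContinuousLinearMap.opNorm_comp_le _ _)
            (ContinuousLinearMap.opNorm_comp_le _ _)
      _ ≤ (‖rho‖ * ‖Y‖) * ‖p‖ + ‖p‖ * ‖Y‖ :=
          add_le_add (mul_le_mul h3 h2 (norm_nonneg _) (by positivity))
            (mul_le_mul_of_nonneg_right h2 (norm_nonneg _))
      _ = _ := by ring

/-- the type property is transported by the flow, with the factor `(lam ^ 2 * mu) ^ n` -/
theorem ty_push (D : ZDk k0 E W X) [FiniteDimensional ℝ W] {k1 : ℕ}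
    (h1 : D.lam ^ k1 * (D.Lam * D.mu) < 1)
    {rho : (E →L[ℝ] E) →L[ℝ] (W →L[ℝ] W)}
    (hrho : ∀ {v A L v'}, D.St v A L v' → ∀ Y s, L (rho Y s) = rho (cj A Y) (L s))
    {C : ℝ} (hC : 0 ≤ C) {v : X} (hT : TyA D k1 h1 rho {v} C) {n : ℕ} {A : E ≃L[ℝ] E}
    {L : W ≃L[ℝ] W} {v0 : X} (hch : Ch D.St v n A L v0) (u : E) : ∃ Y : E →L[ℝ] E,
      ‖Y‖ ≤ C * ‖u‖ * (D.lam ^ 2 * D.mu) ^ n ∧ ∀ p ∈ (D.aff k1 h1).Sm v0,
      ((p.2 u, 0) : W × (E →L[ℝ] W)) - rhoA rho Y p ∈ (D.aff k1 h1).Sm v0 := by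
  have hmu0 : 0 < D.mu := zero_lt_one.trans_le D.mu1
  have hch' : Ch (D.aff k1 h1).St v n A (affE L A 0) v0 := ch_aff hch
  obtain ⟨Y, hY, hYm⟩ := hT v rfl (A.symm u)
  refine ⟨cj A Y, ?_, fun p hp => ?_⟩
  · refine ContinuousLinearMap.opNorm_le_bound _ (by
      have := D.lam0.le; positivity) fun x => ?_
    have b1 := D.ch_A hch u
    have b2 := D.ch_A hch x
    have b3 := ch_A' D hch (Y (A.symm x))
    have hlam : 0 ≤ D.lam ^ n := pow_nonneg D.lam0.le n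
    calc ‖cj A Y x‖ ≤ D.mu ^ n * ‖Y (A.symm x)‖ := b3
      _ ≤ D.mu ^ n * ((C * (D.lam ^ n * ‖u‖)) * (D.lam ^ n * ‖x‖)) := by
          refine mul_le_mul_of_nonneg_left ?_ (pow_nonneg hmu0.le n)
          refine (Y.le_opNorm _).trans (mul_le_mul ?_ b2 (norm_nonneg _) (by positivity))
          exact hY.trans (mul_le_mul_of_nonneg_left b1 hC)
      _ = C * ‖u‖ * (D.lam ^ 2 * D.mu) ^ n * ‖x‖ := by rw [mul_pow, ← pow_mul]; ring
  · set p' := (affE L A 0).symm p with hp'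
    have hpe : affE L A 0 p' = p := (affE L A 0).apply_symm_apply p
    have hp'm : p' ∈ (D.aff k1 h1).Sm v := by
      rw [(D.aff k1 h1).sm_ch hch', hpe]; exact hp
    have h2 := ((D.aff k1 h1).sm_ch hch' _).1 (hYm p' hp'm)
    have e1 : affE L A 0 ((p'.2 (A.symm u), 0) : W × (E →L[ℝ] W)) = (p.2 u, 0) := by
      refine Prod.ext ?_ (ContinuousLinearMap.ext fun x => ?_)
      · rw [affE_fst]
        show L (p'.2 (A.symm u) + (0 : E →L[ℝ] W) 0) = p.2 u
        rw [zero_apply, add_zero, ← hpe, affE_snd]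
      · rw [affE_snd]
        show L ((0 : E →L[ℝ] W) (A.symm x)) = (0 : E →L[ℝ] W) x
        rw [zero_apply, zero_apply, map_zero]
    have hr := ch_rho D hrho hch
    have e2 : affE L A 0 (rhoA rho Y p') = rhoA rho (cj A Y) p := by
      refine Prod.ext ?_ (ContinuousLinearMap.ext fun x => ?_)
      · rw [affE_fst]
        show L (rho Y p'.1 + ((rho Y).comp p'.2 - p'.2.comp Y) 0) = rho (cj A Y) p.1
        rw [map_zero, add_zero, hr, ← hpe, affE_fst, map_zero, add_zero]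
      · rw [affE_snd]
        show L (rho Y (p'.2 (A.symm x)) - p'.2 (Y (A.symm x)))
          = rho (cj A Y) (p.2 x) - p.2 (cj A Y x)
        have e3 : ∀ y, p.2 y = L (p'.2 (A.symm y)) := fun y => by rw [← hpe, affE_snd]
        rw [map_sub, hr, e3 x, e3 (cj A Y x)]
        congr 3
        show Y (A.symm x) = A.symm (A (Y (A.symm x)))
        rw [A.symm_apply_apply]
    rw [map_sub, e1, e2] at h2
    exact h2

theorem exists_ch (D : ZDk k0 E W X) (v : X) (n : ℕ) : ∃ A L v', Ch D.St v n A L v' := by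
  induction n with
  | zero => exact ⟨_, _, v, Ch.zero v⟩
  | succ n ih =>
    obtain ⟨A, L, v', h⟩ := ih
    obtain ⟨A', L', v'', h'⟩ := D.St_next v'
    exact ⟨_, _, v'', Ch.succ h h'⟩

/-- forms of the S-bundle of a limit frame are limits of forms of the S-bundles -/
theorem sm_lsc (D : ZDk k0 E W X) [FiniteDimensional ℝ W] {v : ℕ → X} {w : X}
    (hv : TendstoUniformlyOn (fun n => D.N (v n)) (D.N w) atTop (ball 0 1)) :
    ∃ θ : ℕ → ℕ, StrictMono θ ∧ ∀ t ∈ D.Sm w, ∃ s : ℕ → W, (∀ i, s i ∈ D.Sm (v (θ i))) ∧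
      Tendsto s atTop (𝓝 t) := by
  obtain ⟨θ, hθ, V', hd, hV'⟩ := grass (fun i => D.Sm (v i)) (finrank ℝ (D.Sm w))
    (fun i => D.sm_rank _ _)
  refine ⟨θ, hθ, ?_⟩
  have hle : V' ≤ D.Sm w := by
    intro t ht
    obtain ⟨s, hs, hst⟩ := hV' t ht
    exact D.sm_closed (v := fun i => v (θ i))
      (fun V hV => hθ.tendsto_atTop.eventually (hv V hV)) hs hst
  have heq : V' = D.Sm w := Submodule.eq_of_le_of_finrank_eq hle hd
  rw [← heq]
  exact hV'

/-- **USE 1, forward version**: the type property at one single frame -/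
theorem aff_sm_fwd (D : ZDk k0 E W X) [FiniteDimensional ℝ W] {k1 : ℕ}
    (h1 : D.lam ^ k1 * (D.Lam * D.mu) < 1)
    {rho : (E →L[ℝ] E) →L[ℝ] (W →L[ℝ] W)}
    (hrho : ∀ {v A L v'}, D.St v A L v' → ∀ Y s, L (rho Y s) = rho (cj A Y) (L s))
    (hmu : D.lam ^ 2 * D.mu < 1) {C : ℝ} (hC : 0 ≤ C) {v0 : X} (hT : TyA D k1 h1 rho {v0} C)
    (v : X) : (D.aff k1 h1).Sm v = AffS E (D.Sm v) := by
  classical
  have hmu0 : 0 < D.mu := zero_lt_one.trans_le D.mu1
  choose A L z hz using fun n => exists_ch D v0 n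
  obtain ⟨w, ψ, hψ, hcv⟩ := (D.aff k1 h1).cpt z
  obtain ⟨θ, hθ, hlsc⟩ := sm_lsc (D.aff k1 h1) (v := fun n => z (ψ n)) hcv
  have hw : ∀ p ∈ (D.aff k1 h1).Sm w, ∀ u, p.2 u ∈ D.Sm w := by
    intro p hp u
    refine const_mem D h1 ?_
    obtain ⟨s, hs, hst⟩ := hlsc p hp
    choose Y hY hYm using fun i : ℕ => ty_push D h1 hrho hC hT (hz (ψ (θ i))) u
    refine (D.aff k1 h1).sm_closed (v := fun i => z (ψ (θ i)))
      (fun V hV => hθ.tendsto_atTop.eventually (hcv V hV))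
      (s := fun i => (((s i).2 u, 0) : W × (E →L[ℝ] W)) - rhoA rho (Y i) (s i))
      (fun i => hYm i (s i) (hs i)) ?_
    have a1 : Tendsto (fun i => (((s i).2 u, 0) : W × (E →L[ℝ] W))) atTop (𝓝 (p.2 u, 0)) := by
      have c1 : Continuous fun q : W × (E →L[ℝ] W) => ((q.2 u, 0) : W × (E →L[ℝ] W)) :=
        (continuous_snd.clm_apply continuous_const).prodMk continuous_const
      exact (c1.tendsto p).comp hst
    have a2 : Tendsto (fun i => rhoA rho (Y i) (s i)) atTop (𝓝 0) := by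
      rw [tendsto_zero_iff_norm_tendsto_zero]
      have hn : Tendsto (fun i => ψ (θ i)) atTop atTop :=
        hψ.tendsto_atTop.comp hθ.tendsto_atTop
      have b1 := ((tendsto_pow_atTop_nhds_zero_of_lt_one
        (mul_nonneg (sq_nonneg _) hmu0.le) hmu).comp hn).const_mul (C * ‖u‖)
      rw [mul_zero] at b1
      have b2 := (b1.const_mul (‖rho‖ + 1)).mul hst.norm
      rw [mul_zero, zero_mul] at b2
      refine squeeze_zero (fun _ => norm_nonneg _) (fun i => ?_) b2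
      refine (rhoA_norm rho (Y i) (s i)).trans ?_
      exact mul_le_mul_of_nonneg_right (mul_le_mul_of_nonneg_left (hY i) (by positivity))
        (norm_nonneg _)
    have a3 := a1.sub a2
    rwa [sub_zero] at a3
  have h0 : (D.aff k1 h1).Sm w = AffS E (D.Sm w) :=
    le_antisymm (fun p hp => mem_of_lin D h1 hp (hw p hp)) (AffS_le D h1 w)
  symm
  refine Submodule.eq_of_le_of_finrank_eq (AffS_le D h1 v) ?_
  rw [finrank_AffS, D.sm_rank v w, ← finrank_AffS, ← h0]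
  exact (D.aff k1 h1).sm_rank w v

/-- **(C1) for affine sections, 387's closure form, from the type property at one frame** -/
theorem afC_fwd {k0 : ℕ} {E W X : Type} [NormedAddCommGroup E] [NormedSpace ℝ E]
    [NormedAddCommGroup W] [NormedSpace ℝ W] [FiniteDimensional ℝ E]
    (D : ZDk k0 E W X) [FiniteDimensional ℝ W] {k1 : ℕ}
    (h1 : D.lam ^ k1 * (D.Lam * D.mu) < 1)
    {rho : (E →L[ℝ] E) →L[ℝ] (W →L[ℝ] W)}
    (hrho : ∀ {v A L v'}, D.St v A L v' → ∀ Y s, L (rho Y s) = rho (cj A Y) (L s))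
    (hmu : D.lam ^ 2 * D.mu < 1) {C : ℝ} (hC : 0 ≤ C) {v0 : X} (hT : TyA D k1 h1 rho {v0} C) :
    ∀ i ≥ k1, H387.Q4.AfC D i :=
  afC D h1 (aff_sm_fwd D h1 hrho hmu hC hT)

/-- the bound in `TyA` at one frame is automatic: `Y` can be chosen linearly in `u` -/
theorem tyA_of_ex (D : ZDk k0 E W X) [FiniteDimensional ℝ W] {k1 : ℕ}
    (h1 : D.lam ^ k1 * (D.Lam * D.mu) < 1)
    {rho : (E →L[ℝ] E) →L[ℝ] (W →L[ℝ] W)} {v0 : X}
    (h : ∀ u : E, ∃ Y : E →L[ℝ] E, ∀ p ∈ (D.aff k1 h1).Sm v0,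
      ((p.2 u, 0) : W × (E →L[ℝ] W)) - rhoA rho Y p ∈ (D.aff k1 h1).Sm v0) :
    ∃ C, 0 ≤ C ∧ TyA D k1 h1 rho {v0} C := by
  classical
  set b := Module.finBasis ℝ E
  choose Y hY using fun i => h (b i)
  let T : E →ₗ[ℝ] (E →L[ℝ] E) := b.constr ℝ Y
  have hT : ∀ i, T (b i) = Y i := fun i => b.constr_basis ℝ Y i
  set T' : E →L[ℝ] (E →L[ℝ] E) := LinearMap.toContinuousLinearMap T
  refine ⟨‖T'‖, ContinuousLinearMap.opNorm_nonneg T', ?_⟩
  intro v hv u
  rw [mem_singleton_iff] at hv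
  subst hv
  refine ⟨T' u, T'.le_opNorm u, fun p hp => ?_⟩
  -- linear in `u`
  let F : E →ₗ[ℝ] (W × (E →L[ℝ] W)) :=
    { toFun := fun u => ((p.2 u, 0) : W × (E →L[ℝ] W)) - rhoA rho (T' u) p
      map_add' := by
        intro x y
        refine Prod.ext ?_ (ContinuousLinearMap.ext fun z => ?_)
        · show p.2 (x + y) - rho (T' (x + y)) p.1
            = (p.2 x - rho (T' x) p.1) + (p.2 y - rho (T' y) p.1)
          rw [map_add, map_add, map_add, add_apply]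
          abel
        · show (0 : W) - (rho (T' (x + y)) (p.2 z) - p.2 (T' (x + y) z))
            = (0 - (rho (T' x) (p.2 z) - p.2 (T' x z))) + (0 - (rho (T' y) (p.2 z) - p.2 (T' y z)))
          rw [map_add, map_add, add_apply, add_apply, map_add]
          abel
      map_smul' := by
        intro c x
        refine Prod.ext ?_ (ContinuousLinearMap.ext fun z => ?_)
        · show p.2 (c • x) - rho (T' (c • x)) p.1 = c • (p.2 x - rho (T' x) p.1)
          rw [map_smul, map_smul, map_smul, smul_apply, smul_sub]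
        · show (0 : W) - (rho (T' (c • x)) (p.2 z) - p.2 (T' (c • x) z))
            = c • (0 - (rho (T' x) (p.2 z) - p.2 (T' x z)))
          rw [map_smul, map_smul, smul_apply, smul_apply, map_smul, smul_sub, smul_sub, smul_zero] }
  have hF : ∀ u, F u = ∑ i, b.repr u i • F (b i) := by
    intro u
    conv_lhs => rw [← b.sum_repr u]
    rw [map_sum]
    exact Finset.sum_congr rfl fun i _ => by rw [map_smul]
  show F u ∈ _
  rw [hF u]
  refine Submodule.sum_mem _ fun i _ => Submodule.smul_mem _ _ ?_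
  show ((p.2 (b i), 0) : W × (E →L[ℝ] W)) - rhoA rho (T' (b i)) p ∈ _
  have : T' (b i) = Y i := hT i
  rw [this]
  exact hY i p hp

end Vale.Agent.P207.H106.Aff
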