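import Vale.Agent.P207.H686.K.SB2

/-! # P207, Q'': the zoom data of the affine sections (row W1) -/

set_option linter.all false

open Metric Set Filter Topology Module
open scoped ContDiff

namespace Vale.Agent.P207.H106.Aff

open Vale.Agent.P207.H686

section ev
variable {E W : Type*} [NormedAddCommGroup E] [NormedSpace ℝ E] [NormedAddCommGroup W]
  [NormedSpace ℝ W]

/-- the value of the affine section `p` at `x` -/
noncomputable def ev (x : E) : (W × (E →L[ℝ] W)) →L[ℝ] W :=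
  ContinuousLinearMap.fst ℝ W (E →L[ℝ] W)
    + (ContinuousLinearMap.apply ℝ W x).comp (ContinuousLinearMap.snd ℝ W (E →L[ℝ] W))

@[simp] theorem ev_apply (x : E) (p : W × (E →L[ℝ] W)) : ev x p = p.1 + p.2 x := rfl

theorem ev_smooth : ContDiff ℝ ∞ (ev : E → (W × (E →L[ℝ] W)) →L[ℝ] W) := by
  unfold ev
  exact contDiff_const.add
    ((ContinuousLinearMap.apply ℝ W (E := E)).contDiff.clm_comp contDiff_const)

theorem ev_norm {x : E} (hx : ‖x‖ ≤ 1) : ‖(ev x : (W × (E →L[ℝ] W)) →L[ℝ] W)‖ ≤ 2 := by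
  refine ContinuousLinearMap.opNorm_le_bound _ (by norm_num) fun p => ?_
  rw [ev_apply]
  have h1 : ‖p.1‖ ≤ ‖p‖ := norm_fst_le p
  have h2 : ‖p.2‖ ≤ ‖p‖ := norm_snd_le p
  have h3 : ‖p.2 x‖ ≤ ‖p.2‖ * ‖x‖ := p.2.le_opNorm x
  have h4 : ‖p.2‖ * ‖x‖ ≤ ‖p‖ * 1 := mul_le_mul h2 hx (norm_nonneg _) (norm_nonneg _)
  linarith [norm_add_le p.1 (p.2 x)]

theorem exists_ev_bd (E W : Type*) [NormedAddCommGroup E] [NormedSpace ℝ E]
    [NormedAddCommGroup W] [NormedSpace ℝ W] [FiniteDimensional ℝ E] :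
    ∃ C : ℕ → ℝ, (∀ j, 0 ≤ C j) ∧ ∀ j, ∀ x ∈ closedBall (0 : E) 1,
      ‖iteratedFDeriv ℝ j (ev : E → (W × (E →L[ℝ] W)) →L[ℝ] W) x‖ ≤ C j := by
  have h : ∀ j : ℕ, ∃ C : ℝ, 0 ≤ C ∧ ∀ x ∈ closedBall (0 : E) 1,
      ‖iteratedFDeriv ℝ j (ev : E → (W × (E →L[ℝ] W)) →L[ℝ] W) x‖ ≤ C := by
    intro j
    haveI : ProperSpace E := FiniteDimensional.proper ℝ E
    have hc : Continuous (iteratedFDeriv ℝ j (ev : E → (W × (E →L[ℝ] W)) →L[ℝ] W)) :=
      ev_smooth.continuous_iteratedFDeriv (by exact_mod_cast le_top)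
    obtain ⟨C, hC⟩ := (isCompact_closedBall (0 : E) 1).exists_bound_of_continuousOn hc.continuousOn
    exact ⟨|C|, abs_nonneg _, fun x hx => (hC x hx).trans (le_abs_self _)⟩
  choose C h0 h1 using h
  exact ⟨C, h0, h1⟩

noncomputable def Cev (E W : Type*) [NormedAddCommGroup E] [NormedSpace ℝ E]
    [NormedAddCommGroup W] [NormedSpace ℝ W] [FiniteDimensional ℝ E] : ℕ → ℝ :=
  (exists_ev_bd E W).choose

/-- the bounds of the derivatives after pairing with affine sections -/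
noncomputable def Mev (E W : Type*) [NormedAddCommGroup E] [NormedSpace ℝ E]
    [NormedAddCommGroup W] [NormedSpace ℝ W] [FiniteDimensional ℝ E] (M : ℕ → ℝ) (k : ℕ) : ℝ :=
  ∑ i ∈ Finset.range (k + 1), (k.choose i : ℝ) * M i * Cev E W (k - i)

theorem bilin_bd {F G H : Type*} [NormedAddCommGroup F] [NormedSpace ℝ F]
    [NormedAddCommGroup G] [NormedSpace ℝ G] [NormedAddCommGroup H] [NormedSpace ℝ H]
    (B : F →L[ℝ] G →L[ℝ] H) (hB : ‖B‖ ≤ 1) {O : Set E} (hO : IsOpen O) {f : E → F} {g : E → G}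
    (hf : ContDiffOn ℝ ∞ f O) (hg : ContDiff ℝ ∞ g) {x : E} (hx : x ∈ O) {M C : ℕ → ℝ}
    (hM : ∀ k, ‖iteratedFDeriv ℝ k f x‖ ≤ M k) (hC : ∀ k, ‖iteratedFDeriv ℝ k g x‖ ≤ C k) (k : ℕ) :
    ‖iteratedFDeriv ℝ k (fun y => B (f y) (g y)) x‖
      ≤ ∑ i ∈ Finset.range (k + 1), (k.choose i : ℝ) * M i * C (k - i) := by
  have h1 := ContinuousLinearMap.norm_iteratedFDerivWithin_le_of_bilinear_of_le_one
    B hf hg.contDiffOn hO.uniqueDiffOn hx (n := k) (by exact_mod_cast le_top) hB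
  rw [iteratedFDerivWithin_of_isOpen k hO hx] at h1
  refine h1.trans (Finset.sum_le_sum fun i _ => ?_)
  rw [iteratedFDerivWithin_of_isOpen i hO hx, iteratedFDerivWithin_of_isOpen (k - i) hO hx]
  exact mul_le_mul (mul_le_mul_of_nonneg_left (hM i) (by positivity)) (hC _) (norm_nonneg _)
    (mul_nonneg (by positivity) ((norm_nonneg _).trans (hM i)))

theorem comp_bd {V : Type*} [NormedAddCommGroup V] [NormedSpace ℝ V] {O : Set E} (hO : IsOpen O)
    {e : E → W →L[ℝ] ℝ} {g : E → V →L[ℝ] W} (he : ContDiffOn ℝ ∞ e O) (hg : ContDiff ℝ ∞ g)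
    {x : E} (hx : x ∈ O) {M C : ℕ → ℝ}
    (hM : ∀ k, ‖iteratedFDeriv ℝ k e x‖ ≤ M k) (hC : ∀ k, ‖iteratedFDeriv ℝ k g x‖ ≤ C k) (k : ℕ) :
    ‖iteratedFDeriv ℝ k (fun y => (e y).comp (g y)) x‖
      ≤ ∑ i ∈ Finset.range (k + 1), (k.choose i : ℝ) * M i * C (k - i) :=
  bilin_bd (ContinuousLinearMap.compL ℝ V W ℝ) (ContinuousLinearMap.norm_compL_le ℝ _ _ _) hO he
    hg hx hM hC k

theorem comp_ev_bd [FiniteDimensional ℝ E] {O : Set E} (hO : IsOpen O) (hO1 : O ⊆ closedBall 0 1)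
    {e : E → W →L[ℝ] ℝ} (he : ContDiffOn ℝ ∞ e O) {x : E} (hx : x ∈ O) {M : ℕ → ℝ}
    (hM : ∀ k, ‖iteratedFDeriv ℝ k e x‖ ≤ M k) (k : ℕ) :
    ‖iteratedFDeriv ℝ k (fun y => (e y).comp (ev y)) x‖ ≤ Mev E W M k := by
  have hC : ∀ k, ‖iteratedFDeriv ℝ k (ev : E → (W × (E →L[ℝ] W)) →L[ℝ] W) x‖ ≤ Cev E W k :=
    fun k => (exists_ev_bd E W).choose_spec.2 k x (hO1 hx)
  have h := comp_bd hO he (ev_smooth (E := E) (W := W)) hx hM hC k
  rw [Mev]
  exact h

/-- the action on affine sections: translation by `p`, the linear change `A` of the variable and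
`L` on the values -/
noncomputable def affE (L : W ≃L[ℝ] W) (A : E ≃L[ℝ] E) (p : E) :
    (W × (E →L[ℝ] W)) ≃L[ℝ] (W × (E →L[ℝ] W)) :=
  ContinuousLinearEquiv.equivOfInverse
    (((L : W →L[ℝ] W).comp (ev p)).prod
      (((ContinuousLinearMap.compL ℝ E W W (L : W →L[ℝ] W)).comp
        ((ContinuousLinearMap.compL ℝ E E W).flip (A.symm : E →L[ℝ] E))).comp
        (ContinuousLinearMap.snd ℝ W (E →L[ℝ] W))))
    (((L.symm : W →L[ℝ] W).comp (ev (-(A p)))).prod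
      (((ContinuousLinearMap.compL ℝ E W W (L.symm : W →L[ℝ] W)).comp
        ((ContinuousLinearMap.compL ℝ E E W).flip (A : E →L[ℝ] E))).comp
        (ContinuousLinearMap.snd ℝ W (E →L[ℝ] W))))
    (by
      intro s
      refine Prod.ext ?_ ?_
      · show L.symm (L (s.1 + s.2 p) + L (s.2 (A.symm (-(A p))))) = s.1
        rw [map_neg, A.symm_apply_apply, map_neg, ← map_add, L.symm_apply_apply]
        abel
      · refine ContinuousLinearMap.ext fun x => ?_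
        show L.symm (L (s.2 (A.symm (A x)))) = s.2 x
        rw [A.symm_apply_apply, L.symm_apply_apply])
    (by
      intro t
      refine Prod.ext ?_ ?_
      · show L (L.symm (t.1 + t.2 (-(A p))) + L.symm (t.2 (A p))) = t.1
        rw [← map_add, L.apply_symm_apply, map_neg]
        abel
      · refine ContinuousLinearMap.ext fun x => ?_
        show L (L.symm (t.2 (A (A.symm x)))) = t.2 x
        rw [A.apply_symm_apply, L.apply_symm_apply])

theorem affE_fst (L : W ≃L[ℝ] W) (A : E ≃L[ℝ] E) (p : E) (s : W × (E →L[ℝ] W)) :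
    (affE L A p s).1 = L (s.1 + s.2 p) := rfl

theorem affE_snd (L : W ≃L[ℝ] W) (A : E ≃L[ℝ] E) (p : E) (s : W × (E →L[ℝ] W)) (x : E) :
    (affE L A p s).2 x = L (s.2 (A.symm x)) := rfl

theorem affE_symm_fst (L : W ≃L[ℝ] W) (A : E ≃L[ℝ] E) (p : E) (s : W × (E →L[ℝ] W)) :
    ((affE L A p).symm s).1 = L.symm (s.1 + s.2 (-(A p))) := rfl

theorem affE_symm_snd (L : W ≃L[ℝ] W) (A : E ≃L[ℝ] E) (p : E) (s : W × (E →L[ℝ] W)) (x : E) :
    ((affE L A p).symm s).2 x = L.symm (s.2 (A x)) := rfl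

/-- pairing: the value of the transported section -/
theorem ev_affE (L : W ≃L[ℝ] W) (A : E ≃L[ℝ] E) (p x : E) (s : W × (E →L[ℝ] W)) :
    ev x (affE L A p s) = L (ev (p + A.symm x) s) := by
  rw [ev_apply, ev_apply, affE_fst, affE_snd, ← map_add, map_add s.2, add_assoc]

theorem affE_refl : affE (ContinuousLinearEquiv.refl ℝ W) (ContinuousLinearEquiv.refl ℝ E) 0
    = ContinuousLinearEquiv.refl ℝ (W × (E →L[ℝ] W)) := by
  refine ContinuousLinearEquiv.ext (funext fun s => ?_)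
  refine Prod.ext ?_ (ContinuousLinearMap.ext fun x => rfl)
  show s.1 + s.2 0 = s.1
  rw [map_zero, add_zero]

theorem affE_trans (L L' : W ≃L[ℝ] W) (A A' : E ≃L[ℝ] E) :
    affE (L.trans L') (A.trans A') 0 = (affE L A 0).trans (affE L' A' 0) := by
  refine ContinuousLinearEquiv.ext (funext fun s => ?_)
  refine Prod.ext ?_ (ContinuousLinearMap.ext fun x => rfl)
  show L' (L (s.1 + s.2 0)) = L' (L (s.1 + s.2 0) + L (s.2 (A.symm 0)))
  simp

theorem affE_bd {L : W ≃L[ℝ] W} {A : E ≃L[ℝ] E} {p : E} {C C' : ℝ} (hC : 0 ≤ C) (hC' : 0 ≤ C')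
    (h : ∀ s, ‖L s‖ ≤ C * ‖s‖) (h' : ∀ x, ‖A.symm x‖ ≤ C' * ‖x‖) (s : W × (E →L[ℝ] W)) :
    ‖affE L A p s‖ ≤ max (C * (1 + ‖p‖)) (C * C') * ‖s‖ := by
  have h1 : ‖s.1‖ ≤ ‖s‖ := norm_fst_le s
  have h2 : ‖s.2‖ ≤ ‖s‖ := norm_snd_le s
  rw [Prod.norm_def]
  refine max_le ?_ ?_
  · rw [affE_fst]
    have h3 : ‖s.2 p‖ ≤ ‖s‖ * ‖p‖ := (s.2.le_opNorm p).trans
      (mul_le_mul_of_nonneg_right h2 (norm_nonneg _))
    calc ‖L (s.1 + s.2 p)‖ ≤ C * ‖s.1 + s.2 p‖ := h _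
      _ ≤ C * (‖s‖ + ‖s‖ * ‖p‖) :=
          mul_le_mul_of_nonneg_left ((norm_add_le _ _).trans (add_le_add h1 h3)) hC
      _ = (C * (1 + ‖p‖)) * ‖s‖ := by ring
      _ ≤ _ := mul_le_mul_of_nonneg_right (le_max_left _ _) (norm_nonneg _)
  · refine (ContinuousLinearMap.opNorm_le_bound _ (M := C * C' * ‖s‖) (by positivity)
      fun x => ?_).trans (mul_le_mul_of_nonneg_right (le_max_right _ _) (norm_nonneg _))
    rw [affE_snd]
    calc ‖L (s.2 (A.symm x))‖ ≤ C * ‖s.2 (A.symm x)‖ := h _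
      _ ≤ C * (‖s‖ * (C' * ‖x‖)) := by
          refine mul_le_mul_of_nonneg_left ?_ hC
          exact (s.2.le_opNorm _).trans (mul_le_mul h2 (h' x) (norm_nonneg _) (norm_nonneg _))
      _ = C * C' * ‖s‖ * ‖x‖ := by ring

theorem affE_symm_bd {L : W ≃L[ℝ] W} {A : E ≃L[ℝ] E} {p : E} {C C' : ℝ} (hC : 0 ≤ C)
    (hC' : 0 ≤ C') (h : ∀ s, ‖L.symm s‖ ≤ C * ‖s‖) (h' : ∀ x, ‖A x‖ ≤ C' * ‖x‖)
    (s : W × (E →L[ℝ] W)) :
    ‖(affE L A p).symm s‖ ≤ max (C * (1 + ‖A p‖)) (C * C') * ‖s‖ := by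
  have h1 : ‖s.1‖ ≤ ‖s‖ := norm_fst_le s
  have h2 : ‖s.2‖ ≤ ‖s‖ := norm_snd_le s
  rw [Prod.norm_def]
  refine max_le ?_ ?_
  · rw [affE_symm_fst]
    have h3 : ‖s.2 (-(A p))‖ ≤ ‖s‖ * ‖A p‖ := by
      rw [← norm_neg (A p)]
      exact (s.2.le_opNorm _).trans (mul_le_mul_of_nonneg_right h2 (norm_nonneg _))
    calc ‖L.symm (s.1 + s.2 (-(A p)))‖ ≤ C * ‖s.1 + s.2 (-(A p))‖ := h _
      _ ≤ C * (‖s‖ + ‖s‖ * ‖A p‖) :=
          mul_le_mul_of_nonneg_left ((norm_add_le _ _).trans (add_le_add h1 h3)) hC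
      _ = (C * (1 + ‖A p‖)) * ‖s‖ := by ring
      _ ≤ _ := mul_le_mul_of_nonneg_right (le_max_left _ _) (norm_nonneg _)
  · refine (ContinuousLinearMap.opNorm_le_bound _ (M := C * C' * ‖s‖) (by positivity)
      fun x => ?_).trans (mul_le_mul_of_nonneg_right (le_max_right _ _) (norm_nonneg _))
    rw [affE_symm_snd]
    calc ‖L.symm (s.2 (A x))‖ ≤ C * ‖s.2 (A x)‖ := h _
      _ ≤ C * (‖s‖ * (C' * ‖x‖)) := by
          refine mul_le_mul_of_nonneg_left ?_ hC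
          exact (s.2.le_opNorm _).trans (mul_le_mul h2 (h' x) (norm_nonneg _) (norm_nonneg _))
      _ = C * C' * ‖s‖ * ‖x‖ := by ring

end ev

variable {k0 : ℕ} {E W X : Type*} [NormedAddCommGroup E] [NormedSpace ℝ E] [NormedAddCommGroup W]
  [NormedSpace ℝ W]

/-- chains of steps act on affine sections -/
theorem ch_aff {St : X → (E ≃L[ℝ] E) → (W ≃L[ℝ] W) → X → Prop}
    {v : X} {n : ℕ} {A : E ≃L[ℝ] E} {L : W ≃L[ℝ] W} {v' : X} (h : Ch St v n A L v') :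
    Ch (fun v A L' v' => ∃ L, St v A L v' ∧ L' = affE L A 0) v n A (affE L A 0) v' := by
  induction h with
  | zero => rw [affE_refl]; exact Ch.zero v
  | succ h h' ih => rw [affE_trans]; exact Ch.succ ih ⟨_, h', rfl⟩

/-- **the zoom data of the affine sections** -/
noncomputable def _root_.Vale.Agent.P207.H686.ZDk.aff [FiniteDimensional ℝ E]
    (D : ZDk k0 E W X) (k1 : ℕ)
    (hgap : D.lam ^ k1 * (D.Lam * D.mu) < 1) : ZDk k1 E (W × (E →L[ℝ] W)) X where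
  N v x := (D.N v x).comp (ev (E := E) (W := W) x)
  K := |D.K| * 2
  bd v x hx := by
    refine (ContinuousLinearMap.opNorm_comp_le _ _).trans ?_
    exact mul_le_mul ((D.bd v x hx).trans (le_abs_self _))
      (ev_norm (E := E) (W := W) (mem_ball_zero_iff.1 hx).le) (norm_nonneg _) (abs_nonneg _)
  cont v := (D.cont v).clm_comp (ev_smooth (E := E) (W := W)).continuous.continuousOn
  lam := D.lam
  lam0 := D.lam0
  lam1 := D.lam1
  Lam := D.Lam * D.mu
  Lam1 := one_le_mul_of_one_le_of_one_le D.Lam1 D.mu1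
  k0_pos := by
    rcases Nat.eq_zero_or_pos k1 with h | h
    · subst h
      rw [pow_zero, one_mul] at hgap
      exact absurd (one_le_mul_of_one_le_of_one_le D.Lam1 D.mu1) (not_le.2 hgap)
    · exact h
  gap := hgap
  mu := D.mu
  mu1 := D.mu1
  M := Mev E W D.M
  St v A L' v' := ∃ L, D.St v A L v' ∧ L' = affE L A 0
  St_A := fun ⟨_, h, _⟩ => D.St_A h
  St_A' := fun ⟨_, h, _⟩ => D.St_A' h
  St_L := by
    rintro v A L' v' ⟨L, h, rfl⟩ s
    have h1 := affE_symm_bd (p := (0 : E)) (zero_le_one.trans D.Lam1) (zero_le_one.trans D.mu1)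
      (D.St_L h) (D.St_A' h) s
    rw [map_zero, norm_zero, add_zero, mul_one,
      max_eq_right (le_mul_of_one_le_right (zero_le_one.trans D.Lam1) D.mu1)] at h1
    exact h1
  St_L' := by
    rintro v A L' v' ⟨L, h, rfl⟩ s
    have h1 := affE_bd (p := (0 : E)) (sq_nonneg D.lam) D.lam0.le (D.St_L' h) (D.St_A h) s
    rw [norm_zero, add_zero, mul_one,
      max_eq_left (mul_le_of_le_one_right (sq_nonneg _) D.lam1.le)] at h1
    exact h1
  St_N := by
    rintro v A L' v' ⟨L, h, rfl⟩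
    obtain ⟨e, he, hM, hN⟩ := D.St_N h
    refine ⟨fun x => (e x).comp (ev (E := E) (W := W) x),
      he.clm_comp (ev_smooth (E := E) (W := W)).contDiffOn, fun k x hx =>
      comp_ev_bd isOpen_ball ball_subset_closedBall he hx (fun k => hM k x hx) k,
      fun x hx s => ?_⟩
    show D.N v' x (ev x (affE L A 0 s)) = D.N v (A.symm x) (ev (A.symm x) s)
      + e x (ev x (affE L A 0 s))
    rw [ev_affE, zero_add]
    exact hN x hx _
  St_next v := by
    obtain ⟨A, L, v', h⟩ := D.St_next v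
    exact ⟨A, _, v', L, h, rfl⟩
  St_prev v' := by
    obtain ⟨v, A, L, h⟩ := D.St_prev v'
    exact ⟨v, A, _, L, h, rfl⟩
  BC v p R S' v' := ∃ S, D.BC v p R S v' ∧ S' = affE S R p
  Kb := 2 * D.Kb ^ 2
  Kb1 := by nlinarith [D.Kb1]
  BC_p := fun ⟨_, h, _⟩ => D.BC_p h
  BC_R := by
    rintro v p R S' v' ⟨S, h, rfl⟩
    have h1 : D.Kb ≤ 2 * D.Kb ^ 2 := by nlinarith [D.Kb1]
    exact ⟨fun x => ((D.BC_R h).1 x).trans (mul_le_mul_of_nonneg_right h1 (norm_nonneg _)),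
      fun x => ((D.BC_R h).2 x).trans (mul_le_mul_of_nonneg_right h1 (norm_nonneg _))⟩
  BC_S := by
    rintro v p R S' v' ⟨S, h, rfl⟩
    have hK := D.Kb1
    have hK0 : 0 ≤ D.Kb := zero_le_one.trans hK
    have hp := (D.BC_p h).le
    refine ⟨fun s => (affE_bd (p := p) hK0 hK0 (D.BC_S h).1 (D.BC_R h).2 s).trans
      (mul_le_mul_of_nonneg_right (max_le ?_ ?_) (norm_nonneg _)),
      fun s => (affE_symm_bd (p := p) hK0 hK0 (D.BC_S h).2 (D.BC_R h).1 s).trans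
      (mul_le_mul_of_nonneg_right (max_le ?_ ?_) (norm_nonneg _))⟩
    · nlinarith
    · nlinarith
    · have h1 : ‖R p‖ ≤ D.Kb := ((D.BC_R h).1 p).trans (by nlinarith)
      nlinarith
    · nlinarith
  BC_N := by
    rintro v p R S' v' ⟨S, h, rfl⟩
    obtain ⟨e, he, hM, hN⟩ := D.BC_N h
    have hO : IsOpen {x | x ∈ ball (0 : E) 1 ∧ p + R.symm x ∈ ball (0 : E) 1} :=
      isOpen_ball.inter (isOpen_ball.preimage (continuous_const.add R.symm.continuous))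
    refine ⟨fun x => (e x).comp (ev (E := E) (W := W) x),
      he.clm_comp (ev_smooth (E := E) (W := W)).contDiffOn, fun k x hx hx' =>
      comp_ev_bd hO (fun y hy => ball_subset_closedBall hy.1) he ⟨hx, hx'⟩
        (fun k => hM k x hx hx') k, fun x hx hx' s => ?_⟩
    show D.N v' x (ev x (affE S R p s)) = D.N v (p + R.symm x) (ev (p + R.symm x) s)
      + e x (ev x (affE S R p s))
    rw [ev_affE]
    exact hN x hx hx' _
  BC_ex v p hp := by
    obtain ⟨R, S, v', h⟩ := D.BC_ex v p hp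
    exact ⟨R, _, v', S, h, rfl⟩
  cpt v := by
    obtain ⟨w, ψ, hψ, h⟩ := D.cpt v
    refine ⟨w, ψ, hψ, ?_⟩
    rw [Metric.tendstoUniformlyOn_iff] at h ⊢
    intro ε hε
    filter_upwards [h (ε / 2) (by positivity)] with n hn x hx
    have h1 := hn x hx
    rw [dist_eq_norm] at h1 ⊢
    have h2 : (D.N w x).comp (ev x) - (D.N (v (ψ n)) x).comp (ev x)
        = (D.N w x - D.N (v (ψ n)) x).comp (ev x) := rfl
    rw [h2]
    have h3 := ContinuousLinearMap.opNorm_comp_le (D.N w x - D.N (v (ψ n)) x) (ev x)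
    have h4 := ev_norm (E := E) (W := W) (mem_ball_zero_iff.1 hx).le
    nlinarith [norm_nonneg (D.N w x - D.N (v (ψ n)) x)]
  dense v O hO hO1 hne w := by
    obtain ⟨p, R, S, u, n, A, L, w', h1, h2, h3, h4, h⟩ := D.dense v O hO hO1 hne w
    refine ⟨p, R, fun i => affE (S i) (R i) (p i), u, n, A, fun i => affE (L i) (A i) 0, w', h1,
      fun i => ⟨S i, h2 i, rfl⟩, fun i => ch_aff (h3 i), h4, ?_⟩
    rw [Metric.tendstoUniformlyOn_iff] at h ⊢
    intro ε hε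
    filter_upwards [h (ε / 2) (by positivity)] with n hn x hx
    have h1 := hn x hx
    rw [dist_eq_norm] at h1 ⊢
    have h2 : (D.N w x).comp (ev x) - (D.N (w' n) x).comp (ev x)
        = (D.N w x - D.N (w' n) x).comp (ev x) := rfl
    rw [h2]
    have h3 := ContinuousLinearMap.opNorm_comp_le (D.N w x - D.N (w' n) x) (ev x)
    have h4 := ev_norm (E := E) (W := W) (mem_ball_zero_iff.1 hx).le
    nlinarith [norm_nonneg (D.N w x - D.N (w' n) x)]

end Vale.Agent.P207.H106.Aff
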